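import Mathlib

/-!
Effective resistance of edges in vertex-transitive graphs.

For a finite k-regular simple graph G whose automorphism group acts transitively on vertices,
every function f and every edge xy satisfy
  (f x - f y)^2 <= (12 / k) * energy G f,
where energy G f is the sum over edges of the squared differences of f.
Equivalently every edge has effective resistance at most 12 / k.

Proof idea: write f = P f + (f - P f) with P the averaging operator. The second part is small
in sup norm by Cauchy-Schwarz. For the first part, with M = L + eps and X = P M^(-1) P, the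
Hilbert-Schmidt norm of P gives  sum over edges of b_e^T X b_e <= trace (P P) = n / k, and
transitivity makes all the n terms at a fixed vertex orbit equal.
-/

open Matrix Finset

namespace Vale.Agent.Lib.P061

set_option linter.unusedSectionVars false
set_option linter.unusedSimpArgs false

variable {V : Type*} [Fintype V] [DecidableEq V]

/-- Dirichlet energy: half of the sum over ordered adjacent pairs, that is the sum over edges of
the squared differences. -/
noncomputable def energy (G : SimpleGraph V) [DecidableRel G.Adj] (f : V → ℝ) : ℝ :=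
  (1 / 2) * ∑ u, ∑ v, if G.Adj u v then (f u - f v) ^ 2 else 0

section
variable {G : SimpleGraph V} [DecidableRel G.Adj] {k : ℕ}

lemma sum_adj_const (hreg : G.IsRegularOfDegree k) (u : V) (c : ℝ) :
    ∑ v, (if G.Adj u v then c else 0) = k * c := by
  rw [← Finset.sum_filter, Finset.sum_const, nsmul_eq_mul]
  have : (Finset.univ.filter (G.Adj u)).card = k := by
    have h := hreg u
    rw [← SimpleGraph.card_neighborFinset_eq_degree, SimpleGraph.neighborFinset_eq_filter] at h
    exact h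
  rw [this]

lemma energy_nonneg (f : V → ℝ) : 0 ≤ energy G f := by
  unfold energy
  apply mul_nonneg (by norm_num)
  apply Finset.sum_nonneg; intro u _
  apply Finset.sum_nonneg; intro v _
  split_ifs
  · exact sq_nonneg _
  · exact le_rfl

lemma energy_eq (hreg : G.IsRegularOfDegree k) (f : V → ℝ) :
    energy G f = k * ∑ u, f u ^ 2 - ∑ u, ∑ v, if G.Adj u v then f u * f v else 0 := by
  unfold energy
  have h1 : ∀ u v, (if G.Adj u v then (f u - f v) ^ 2 else 0) =
      (if G.Adj u v then f u ^ 2 else 0) + (if G.Adj v u then f v ^ 2 else 0)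
        - 2 * (if G.Adj u v then f u * f v else 0) := by
    intro u v
    by_cases h : G.Adj u v
    · have h' : G.Adj v u := h.symm
      simp only [h, h', if_true]; ring
    · have h' : ¬ G.Adj v u := fun h'' => h h''.symm
      simp [h, h']
  simp_rw [h1, Finset.sum_sub_distrib, Finset.sum_add_distrib, ← Finset.mul_sum]
  have h2 : ∑ u, ∑ v, (if G.Adj u v then f u ^ 2 else 0) = k * ∑ u, f u ^ 2 := by
    rw [Finset.mul_sum]
    exact Finset.sum_congr rfl fun u _ => sum_adj_const hreg u _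
  have h3 : ∑ u, ∑ v, (if G.Adj v u then f v ^ 2 else 0) = k * ∑ u, f u ^ 2 := by
    rw [Finset.sum_comm, Finset.mul_sum]
    exact Finset.sum_congr rfl fun u _ => sum_adj_const hreg u _
  rw [h2, h3]; ring

/-- The regularized Laplacian. -/
noncomputable def regLap (G : SimpleGraph V) [DecidableRel G.Adj] (k : ℕ) (ε : ℝ) : Matrix V V ℝ :=
  ((k : ℝ) + ε) • (1 : Matrix V V ℝ) - G.adjMatrix ℝ

lemma adj_quad (x : V → ℝ) :
    x ⬝ᵥ (G.adjMatrix ℝ *ᵥ x) = ∑ u, ∑ v, if G.Adj u v then x u * x v else 0 := by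
  simp only [dotProduct, mulVec, Finset.mul_sum, SimpleGraph.adjMatrix_apply]
  refine Finset.sum_congr rfl fun u _ => Finset.sum_congr rfl fun v _ => ?_
  by_cases h : G.Adj u v <;> simp [h]

lemma regLap_quad (hreg : G.IsRegularOfDegree k) (ε : ℝ) (x : V → ℝ) :
    x ⬝ᵥ (regLap G k ε *ᵥ x) = energy G x + ε * ∑ u, x u ^ 2 := by
  rw [energy_eq hreg, regLap, Matrix.sub_mulVec, dotProduct_sub, adj_quad]
  have h : x ⬝ᵥ ((((k : ℝ) + ε) • (1 : Matrix V V ℝ)) *ᵥ x) = ((k : ℝ) + ε) * ∑ u, x u ^ 2 := by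
    rw [Matrix.smul_mulVec, Matrix.one_mulVec, dotProduct_smul, smul_eq_mul]
    congr 1
    exact Finset.sum_congr rfl fun u _ => by ring
  rw [h]; ring

lemma regLap_posDef (hreg : G.IsRegularOfDegree k) {ε : ℝ} (hε : 0 < ε) :
    (regLap G k ε).PosDef := by
  refine Matrix.PosDef.of_dotProduct_mulVec_pos ?_ ?_
  · unfold regLap
    ext i j
    simp only [Matrix.conjTranspose_apply, Matrix.sub_apply, Matrix.smul_apply, Matrix.one_apply,
      SimpleGraph.adjMatrix_apply, star_trivial, smul_eq_mul]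
    have h1 : (j = i) = (i = j) := propext eq_comm
    have h2 : G.Adj j i = G.Adj i j := propext ⟨fun h => h.symm, fun h => h.symm⟩
    simp only [h1, h2]
  · intro x hx
    have hstar : star x = x := by ext i; simp
    rw [hstar, regLap_quad hreg]
    have h0 : 0 < ∑ u, x u ^ 2 := by
      obtain ⟨i, hi⟩ := Function.ne_iff.mp hx
      have hi' : x i ≠ 0 := by simpa using hi
      exact Finset.sum_pos' (fun u _ => sq_nonneg _) ⟨i, Finset.mem_univ i, by positivity⟩
    have := energy_nonneg (G := G) x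
    have : 0 < ε * ∑ u, x u ^ 2 := mul_pos hε h0
    linarith

/-- Cauchy-Schwarz with an inverse. -/
lemma cs_inv {M : Matrix V V ℝ} (hM : M.PosDef) (w f : V → ℝ) :
    (w ⬝ᵥ f) ^ 2 ≤ (w ⬝ᵥ (M⁻¹ *ᵥ w)) * (f ⬝ᵥ (M *ᵥ f)) := by
  have hunit : IsUnit M.det := (Matrix.isUnit_iff_isUnit_det M).mp hM.isUnit
  set u := M⁻¹ *ᵥ w with hu
  have hMu : M *ᵥ u = w := by
    rw [hu, Matrix.mulVec_mulVec, Matrix.mul_nonsing_inv _ hunit, Matrix.one_mulVec]
  have hsymm : Mᵀ = M := by
    have := hM.isHermitian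
    ext i j
    have h2 := congrFun (congrFun this i) j
    simpa [Matrix.conjTranspose_apply] using h2
  have hsw : ∀ p q : V → ℝ, p ⬝ᵥ (M *ᵥ q) = q ⬝ᵥ (M *ᵥ p) := by
    intro p q
    rw [Matrix.dotProduct_mulVec, dotProduct_comm, ← Matrix.mulVec_transpose, hsymm]
  have h1 : w ⬝ᵥ f = u ⬝ᵥ (M *ᵥ f) := by
    rw [hsw u f, hMu, dotProduct_comm]
  have h2 : w ⬝ᵥ u = u ⬝ᵥ (M *ᵥ u) := by
    rw [hMu, dotProduct_comm]
  rw [h2, h1]
  have hpos : ∀ t : ℝ, 0 ≤ (f ⬝ᵥ (M *ᵥ f)) * (t * t) + (2 * (u ⬝ᵥ (M *ᵥ f))) * t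
      + (u ⬝ᵥ (M *ᵥ u)) := by
    intro t
    have h := hM.posSemidef.dotProduct_mulVec_nonneg (u + t • f)
    have hstar : star (u + t • f) = u + t • f := by ext i; simp
    rw [hstar, Matrix.mulVec_add, Matrix.mulVec_smul] at h
    simp only [dotProduct_add, add_dotProduct, dotProduct_smul, smul_dotProduct, smul_eq_mul] at h
    have h3 := hsw f u
    rw [h3] at h
    calc 0 ≤ _ := h
      _ = _ := by ring
  have h := discrim_le_zero hpos
  unfold discrim at h
  nlinarith

/-- The operator X = P M^(-1) P, with P = A / k and M the regularized Laplacian. -/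
noncomputable def opX (G : SimpleGraph V) [DecidableRel G.Adj] (k : ℕ) (ε : ℝ) : Matrix V V ℝ :=
  ((1 / (k : ℝ)) • G.adjMatrix ℝ) * (regLap G k ε)⁻¹ * ((1 / (k : ℝ)) • G.adjMatrix ℝ)

/-- The quadratic form of X on the difference of the basis vectors at u and v. -/
noncomputable def opT (G : SimpleGraph V) [DecidableRel G.Adj] (k : ℕ) (ε : ℝ) (u v : V) : ℝ :=
  opX G k ε u u + opX G k ε v v - opX G k ε u v - opX G k ε v u

lemma adj_symm_apply (G : SimpleGraph V) [DecidableRel G.Adj] (u v : V) :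
    G.adjMatrix ℝ u v = G.adjMatrix ℝ v u := by
  simp only [SimpleGraph.adjMatrix_apply]
  have h2 : G.Adj v u = G.Adj u v := propext ⟨fun h => h.symm, fun h => h.symm⟩
  simp only [h2]

/-- Row of P. -/
noncomputable def rowP (G : SimpleGraph V) [DecidableRel G.Adj] (k : ℕ) (u : V) : V → ℝ :=
  fun a => (1 / (k : ℝ)) * G.adjMatrix ℝ u a

lemma opX_apply (ε : ℝ) (u v : V) :
    opX G k ε u v = rowP G k u ⬝ᵥ ((regLap G k ε)⁻¹ *ᵥ rowP G k v) := by
  unfold opX rowP
  rw [Matrix.mul_assoc, Matrix.mul_apply]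
  simp only [dotProduct, mulVec, Matrix.smul_apply, smul_eq_mul, Matrix.mul_apply]
  refine Finset.sum_congr rfl fun a _ => ?_
  congr 1
  refine Finset.sum_congr rfl fun b _ => ?_
  rw [adj_symm_apply G b v]

lemma opT_eq (ε : ℝ) (u v : V) :
    opT G k ε u v = (rowP G k u - rowP G k v) ⬝ᵥ
      ((regLap G k ε)⁻¹ *ᵥ (rowP G k u - rowP G k v)) := by
  unfold opT
  rw [opX_apply, opX_apply, opX_apply, opX_apply, Matrix.mulVec_sub, dotProduct_sub,
    sub_dotProduct, sub_dotProduct]
  ring

lemma opT_nonneg (hreg : G.IsRegularOfDegree k) {ε : ℝ} (hε : 0 < ε) (u v : V) :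
    0 ≤ opT G k ε u v := by
  rw [opT_eq]
  have h := (regLap_posDef hreg hε).inv.posSemidef.dotProduct_mulVec_nonneg
    (rowP G k u - rowP G k v)
  have hstar : star (rowP G k u - rowP G k v) = rowP G k u - rowP G k v := by ext i; simp
  rwa [hstar] at h

lemma regLap_comm (ε : ℝ) : G.adjMatrix ℝ * regLap G k ε = regLap G k ε * G.adjMatrix ℝ := by
  unfold regLap
  rw [Matrix.mul_sub, Matrix.sub_mul, Matrix.mul_smul, Matrix.smul_mul, Matrix.mul_one,
    Matrix.one_mul]

lemma regLap_inv_comm (hreg : G.IsRegularOfDegree k) {ε : ℝ} (hε : 0 < ε) :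
    G.adjMatrix ℝ * (regLap G k ε)⁻¹ = (regLap G k ε)⁻¹ * G.adjMatrix ℝ := by
  have hunit : IsUnit (regLap G k ε).det :=
    (Matrix.isUnit_iff_isUnit_det _).mp (regLap_posDef hreg hε).isUnit
  calc G.adjMatrix ℝ * (regLap G k ε)⁻¹
      = ((regLap G k ε)⁻¹ * regLap G k ε) * G.adjMatrix ℝ * (regLap G k ε)⁻¹ := by
        rw [Matrix.nonsing_inv_mul _ hunit, Matrix.one_mul]
    _ = (regLap G k ε)⁻¹ * (regLap G k ε * G.adjMatrix ℝ) * (regLap G k ε)⁻¹ := by
        rw [Matrix.mul_assoc ((regLap G k ε)⁻¹)]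
    _ = (regLap G k ε)⁻¹ * (G.adjMatrix ℝ * regLap G k ε) * (regLap G k ε)⁻¹ := by
        rw [regLap_comm]
    _ = (regLap G k ε)⁻¹ * G.adjMatrix ℝ * (regLap G k ε * (regLap G k ε)⁻¹) := by
        simp only [Matrix.mul_assoc]
    _ = (regLap G k ε)⁻¹ * G.adjMatrix ℝ := by
        rw [Matrix.mul_nonsing_inv _ hunit, Matrix.mul_one]

/-- With P = A / k, X times the Laplacian is P P minus eps X. -/
lemma opX_mul_lap (hreg : G.IsRegularOfDegree k) {ε : ℝ} (hε : 0 < ε) :
    opX G k ε * ((k : ℝ) • (1 : Matrix V V ℝ) - G.adjMatrix ℝ) =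
      ((1 / (k : ℝ)) • G.adjMatrix ℝ) * ((1 / (k : ℝ)) • G.adjMatrix ℝ) - ε • opX G k ε := by
  have hunit : IsUnit (regLap G k ε).det :=
    (Matrix.isUnit_iff_isUnit_det _).mp (regLap_posDef hreg hε).isUnit
  have hL : (k : ℝ) • (1 : Matrix V V ℝ) - G.adjMatrix ℝ = regLap G k ε - ε • 1 := by
    unfold regLap
    rw [add_smul]; abel
  rw [hL, Matrix.mul_sub, Matrix.mul_smul, Matrix.mul_one]
  congr 1
  unfold opX
  set P := (1 / (k : ℝ)) • G.adjMatrix ℝ with hP
  have hPM : P * regLap G k ε = regLap G k ε * P := by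
    rw [hP, Matrix.smul_mul, Matrix.mul_smul, regLap_comm]
  calc P * (regLap G k ε)⁻¹ * P * regLap G k ε
      = P * (regLap G k ε)⁻¹ * (P * regLap G k ε) := by rw [Matrix.mul_assoc]
    _ = P * ((regLap G k ε)⁻¹ * regLap G k ε) * P := by
        rw [hPM]; simp only [Matrix.mul_assoc]
    _ = P * P := by rw [Matrix.nonsing_inv_mul _ hunit, Matrix.mul_one]

lemma trace_opX_nonneg (hreg : G.IsRegularOfDegree k) {ε : ℝ} (hε : 0 < ε) :
    0 ≤ (opX G k ε).trace := by
  refine Finset.sum_nonneg fun u _ => ?_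
  simp only [Matrix.diag_apply]
  rw [opX_apply]
  have h := (regLap_posDef hreg hε).inv.posSemidef.dotProduct_mulVec_nonneg (rowP G k u)
  have hstar : star (rowP G k u) = rowP G k u := by ext i; simp
  rwa [hstar] at h

lemma trace_PP (hreg : G.IsRegularOfDegree k) (hk : 0 < k) :
    (((1 / (k : ℝ)) • G.adjMatrix ℝ) * ((1 / (k : ℝ)) • G.adjMatrix ℝ)).trace =
      (Fintype.card V : ℝ) / k := by
  have hk' : (k : ℝ) ≠ 0 := by exact_mod_cast hk.ne'
  simp only [Matrix.trace, Matrix.diag_apply, Matrix.mul_apply, Matrix.smul_apply, smul_eq_mul]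
  have h1 : ∀ u v, (1 / (k : ℝ)) * G.adjMatrix ℝ u v * ((1 / (k : ℝ)) * G.adjMatrix ℝ v u) =
      if G.Adj u v then 1 / (k : ℝ) ^ 2 else 0 := by
    intro u v
    rw [adj_symm_apply G v u]
    by_cases h : G.Adj u v
    · simp [SimpleGraph.adjMatrix_apply, h]; field_simp
    · simp [SimpleGraph.adjMatrix_apply, h]
  simp_rw [h1, sum_adj_const hreg]
  simp only [Finset.sum_const, Finset.card_univ, nsmul_eq_mul]
  field_simp

/-- Sum of the T over ordered adjacent pairs. -/
lemma sum_opT (hreg : G.IsRegularOfDegree k) (ε : ℝ) :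
    ∑ u, ∑ v, (if G.Adj u v then opT G k ε u v else 0) =
      2 * (opX G k ε * ((k : ℝ) • (1 : Matrix V V ℝ) - G.adjMatrix ℝ)).trace := by
  have h1 : ∀ u v, (if G.Adj u v then opT G k ε u v else 0) =
      (if G.Adj u v then opX G k ε u u else 0) + (if G.Adj v u then opX G k ε v v else 0)
        - opX G k ε u v * G.adjMatrix ℝ v u - opX G k ε v u * G.adjMatrix ℝ u v := by
    intro u v
    unfold opT
    by_cases h : G.Adj u v
    · have h' : G.Adj v u := h.symm
      simp [h, h', SimpleGraph.adjMatrix_apply]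
    · have h' : ¬ G.Adj v u := fun h'' => h h''.symm
      simp [h, h', SimpleGraph.adjMatrix_apply]
  simp_rw [h1, Finset.sum_sub_distrib, Finset.sum_add_distrib]
  have h2 : ∑ u, ∑ v, (if G.Adj u v then opX G k ε u u else 0) = k * (opX G k ε).trace := by
    simp only [Matrix.trace, Matrix.diag_apply, Finset.mul_sum]
    exact Finset.sum_congr rfl fun u _ => sum_adj_const hreg u _
  have h3 : ∑ u, ∑ v, (if G.Adj v u then opX G k ε v v else 0) = k * (opX G k ε).trace := by
    rw [Finset.sum_comm]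
    simp only [Matrix.trace, Matrix.diag_apply, Finset.mul_sum]
    exact Finset.sum_congr rfl fun u _ => sum_adj_const hreg u _
  have h4 : ∑ u, ∑ v, opX G k ε u v * G.adjMatrix ℝ v u = (opX G k ε * G.adjMatrix ℝ).trace := by
    simp only [Matrix.trace, Matrix.diag_apply, Matrix.mul_apply]
  have h5 : ∑ u, ∑ v, opX G k ε v u * G.adjMatrix ℝ u v = (opX G k ε * G.adjMatrix ℝ).trace := by
    rw [Finset.sum_comm]; exact h4
  rw [h2, h3, h4, h5, Matrix.mul_sub, Matrix.trace_sub, Matrix.mul_smul, Matrix.mul_one,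
    Matrix.trace_smul, smul_eq_mul]
  ring

/-- Invariance of X under automorphisms. -/
lemma opX_map (ε : ℝ) (σ : G ≃g G) (u v : V) :
    opX G k ε (σ u) (σ v) = opX G k ε u v := by
  have hA : (G.adjMatrix ℝ).submatrix σ σ = G.adjMatrix ℝ := by
    ext i j
    simp [SimpleGraph.adjMatrix_apply, σ.map_adj_iff]
  have hM : (regLap G k ε).submatrix σ σ = regLap G k ε := by
    ext i j
    simp [regLap, Matrix.one_apply, SimpleGraph.adjMatrix_apply, σ.map_adj_iff]
  have hMinv : ((regLap G k ε)⁻¹).submatrix σ σ = (regLap G k ε)⁻¹ := by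
    have h := Matrix.inv_submatrix_equiv (regLap G k ε) σ.toEquiv σ.toEquiv
    have hM' : (regLap G k ε).submatrix σ.toEquiv σ.toEquiv = regLap G k ε := hM
    rw [hM'] at h
    exact h.symm
  have hP : ((1 / (k : ℝ)) • G.adjMatrix ℝ).submatrix σ σ = (1 / (k : ℝ)) • G.adjMatrix ℝ := by
    ext i j
    simp [SimpleGraph.adjMatrix_apply, σ.map_adj_iff]
  have hX : (opX G k ε).submatrix σ σ = opX G k ε := by
    unfold opX
    have e1 : ∀ A B : Matrix V V ℝ, (A * B).submatrix σ σ = A.submatrix σ σ * B.submatrix σ σ :=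
      fun A B => (Matrix.submatrix_mul_equiv A B σ σ.toEquiv σ).symm
    rw [e1, e1, hP, hMinv]
  have := congrFun (congrFun hX u) v
  simpa using this

lemma opT_map (ε : ℝ) (σ : G ≃g G) (u v : V) :
    opT G k ε (σ u) (σ v) = opT G k ε u v := by
  unfold opT
  simp only [opX_map]

/-- Main estimate: T is at most 2 / k on edges of a vertex-transitive graph. -/
lemma opT_le (hreg : G.IsRegularOfDegree k) (hk : 0 < k)
    (htrans : ∀ x y : V, ∃ σ : G ≃g G, σ x = y) {ε : ℝ} (hε : 0 < ε) {x y : V}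
    (hxy : G.Adj x y) : opT G k ε x y ≤ 2 / k := by
  have hk' : (0 : ℝ) < k := by exact_mod_cast hk
  have hn : (0 : ℝ) < Fintype.card V := by
    have : Nonempty V := ⟨x⟩
    exact_mod_cast Fintype.card_pos
  have h1 : ∀ z, opT G k ε x y ≤ ∑ v, (if G.Adj z v then opT G k ε z v else 0) := by
    intro z
    obtain ⟨σ, hσ⟩ := htrans x z
    have hadj : G.Adj z (σ y) := by
      rw [← hσ]; exact σ.map_adj_iff.mpr hxy
    have h2 : opT G k ε z (σ y) = opT G k ε x y := by
      rw [← hσ]; exact opT_map ε σ x y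
    calc opT G k ε x y = (if G.Adj z (σ y) then opT G k ε z (σ y) else 0) := by
          rw [if_pos hadj, h2]
      _ ≤ ∑ v, (if G.Adj z v then opT G k ε z v else 0) := by
          apply Finset.single_le_sum (f := fun v => if G.Adj z v then opT G k ε z v else 0)
          · intro v _
            by_cases h : G.Adj z v
            · simp only [h, if_true]; exact opT_nonneg hreg hε z v
            · simp [h]
          · exact Finset.mem_univ _
  have h3 : (Fintype.card V : ℝ) * opT G k ε x y ≤ 2 * ((Fintype.card V : ℝ) / k) := by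
    calc (Fintype.card V : ℝ) * opT G k ε x y = ∑ _z : V, opT G k ε x y := by
          simp [Finset.card_univ]
      _ ≤ ∑ z, ∑ v, (if G.Adj z v then opT G k ε z v else 0) :=
          Finset.sum_le_sum fun z _ => h1 z
      _ = 2 * (opX G k ε * ((k : ℝ) • (1 : Matrix V V ℝ) - G.adjMatrix ℝ)).trace := sum_opT hreg ε
      _ ≤ 2 * ((Fintype.card V : ℝ) / k) := by
          rw [opX_mul_lap hreg hε, Matrix.trace_sub, trace_PP hreg hk, Matrix.trace_smul,
            smul_eq_mul]
          have := mul_nonneg hε.le (trace_opX_nonneg hreg hε)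
          linarith
  have h4 : 2 * ((Fintype.card V : ℝ) / k) = (Fintype.card V : ℝ) * (2 / k) := by ring
  rw [h4] at h3
  exact le_of_mul_le_mul_left h3 hn

/-- The averaging operator. -/
noncomputable def avg (G : SimpleGraph V) [DecidableRel G.Adj] (k : ℕ) (f : V → ℝ) (x : V) : ℝ :=
  (1 / (k : ℝ)) * ∑ z, if G.Adj x z then f z else 0

lemma rowP_dot (f : V → ℝ) (x : V) : rowP G k x ⬝ᵥ f = avg G k f x := by
  unfold rowP avg
  simp only [dotProduct, Finset.mul_sum, SimpleGraph.adjMatrix_apply]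
  refine Finset.sum_congr rfl fun v _ => ?_
  by_cases h : G.Adj x v <;> simp [h]

/-- The averaged part. -/
lemma avg_diff_sq_le (hreg : G.IsRegularOfDegree k) (hk : 0 < k)
    (htrans : ∀ x y : V, ∃ σ : G ≃g G, σ x = y) (f : V → ℝ) {x y : V} (hxy : G.Adj x y) :
    (avg G k f x - avg G k f y) ^ 2 ≤ (2 / k) * energy G f := by
  have hk' : (0 : ℝ) < k := by exact_mod_cast hk
  have h2k : 0 ≤ (2 : ℝ) / k := by positivity
  refine le_of_forall_pos_le_add ?_
  intro δ hδ
  set S := ∑ u, f u ^ 2 with hS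
  have hS0 : 0 ≤ S := Finset.sum_nonneg fun u _ => sq_nonneg _
  -- choose eps small
  set ε : ℝ := δ / ((2 / k) * S + 1) with hε_def
  have hdenom : 0 < (2 / (k : ℝ)) * S + 1 := by positivity
  have hε : 0 < ε := div_pos hδ hdenom
  have hcs := cs_inv (regLap_posDef (ε := ε) hreg hε) (rowP G k x - rowP G k y) f
  rw [regLap_quad hreg, ← opT_eq, sub_dotProduct, rowP_dot, rowP_dot] at hcs
  have hT := opT_le hreg hk htrans hε hxy
  have hE := energy_nonneg (G := G) f
  have hpos : 0 ≤ energy G f + ε * S := by positivity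
  calc (avg G k f x - avg G k f y) ^ 2 ≤ opT G k ε x y * (energy G f + ε * S) := hcs
    _ ≤ (2 / k) * (energy G f + ε * S) := mul_le_mul_of_nonneg_right hT hpos
    _ = (2 / k) * energy G f + ε * ((2 / k) * S) := by ring
    _ ≤ (2 / k) * energy G f + δ := by
        have : ε * ((2 / k) * S) ≤ δ := by
          rw [hε_def, div_mul_eq_mul_div, div_le_iff₀ hdenom]
          nlinarith
        linarith

/-- The oscillating part is small in L2. -/
lemma sum_sub_avg_sq_le (hreg : G.IsRegularOfDegree k) (hk : 0 < k) (f : V → ℝ) :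
    ∑ z, (f z - avg G k f z) ^ 2 ≤ (2 / k) * energy G f := by
  have hk' : (0 : ℝ) < k := by exact_mod_cast hk
  have h1 : ∀ z, (f z - avg G k f z) ^ 2 ≤
      (1 / (k : ℝ)) * ∑ v, (if G.Adj z v then (f z - f v) ^ 2 else 0) := by
    intro z
    have e : f z - avg G k f z =
        (1 / (k : ℝ)) * ∑ v, (if G.Adj z v then (f z - f v) else 0) := by
      have h2 : ∑ v, (if G.Adj z v then (f z - f v) else 0) =
          ∑ v, (if G.Adj z v then f z else 0) - ∑ v, (if G.Adj z v then f v else 0) := by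
        rw [← Finset.sum_sub_distrib]
        refine Finset.sum_congr rfl fun v _ => ?_
        by_cases h : G.Adj z v <;> simp [h]
      rw [h2, sum_adj_const hreg]
      unfold avg
      field_simp
    rw [e]
    have hcs := Finset.sum_mul_sq_le_sq_mul_sq Finset.univ
      (fun v => if G.Adj z v then (1 : ℝ) else 0) (fun v => if G.Adj z v then (f z - f v) else 0)
    have e1 : ∑ v, (if G.Adj z v then (1 : ℝ) else 0) * (if G.Adj z v then (f z - f v) else 0) =
        ∑ v, (if G.Adj z v then (f z - f v) else 0) := by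
      refine Finset.sum_congr rfl fun v _ => ?_
      by_cases h : G.Adj z v <;> simp [h]
    have e2 : ∑ v, (if G.Adj z v then (1 : ℝ) else 0) ^ 2 = k := by
      have : ∀ v, (if G.Adj z v then (1 : ℝ) else 0) ^ 2 = if G.Adj z v then (1 : ℝ) else 0 := by
        intro v; by_cases h : G.Adj z v <;> simp [h]
      simp_rw [this, sum_adj_const hreg]; ring
    have e3 : ∑ v, (if G.Adj z v then (f z - f v) else 0) ^ 2 =
        ∑ v, (if G.Adj z v then (f z - f v) ^ 2 else 0) := by
      refine Finset.sum_congr rfl fun v _ => ?_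
      by_cases h : G.Adj z v <;> simp [h]
    rw [e1, e2, e3] at hcs
    set s1 := ∑ v, (if G.Adj z v then (f z - f v) else 0)
    set s2 := ∑ v, (if G.Adj z v then (f z - f v) ^ 2 else 0)
    have : ((1 / (k : ℝ)) * s1) ^ 2 = (1 / (k : ℝ)) ^ 2 * s1 ^ 2 := by ring
    rw [this]
    calc (1 / (k : ℝ)) ^ 2 * s1 ^ 2 ≤ (1 / (k : ℝ)) ^ 2 * (k * s2) := by
          apply mul_le_mul_of_nonneg_left hcs (by positivity)
      _ = (1 / (k : ℝ)) * s2 := by field_simp
  calc ∑ z, (f z - avg G k f z) ^ 2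
      ≤ ∑ z, (1 / (k : ℝ)) * ∑ v, (if G.Adj z v then (f z - f v) ^ 2 else 0) :=
        Finset.sum_le_sum fun z _ => h1 z
    _ = (2 / k) * energy G f := by
        unfold energy
        rw [← Finset.mul_sum]; ring

/-- Main theorem: effective resistance of every edge of a vertex-transitive regular graph is at
most 12 / k. -/
theorem edge_diff_sq_le (hreg : G.IsRegularOfDegree k) (hk : 0 < k)
    (htrans : ∀ x y : V, ∃ σ : G ≃g G, σ x = y) (f : V → ℝ) {x y : V} (hxy : G.Adj x y) :
    (f x - f y) ^ 2 ≤ (12 / k) * energy G f := by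
  have hk' : (0 : ℝ) < k := by exact_mod_cast hk
  have hne : x ≠ y := hxy.ne
  have h1 := avg_diff_sq_le hreg hk htrans f hxy
  have h2 := sum_sub_avg_sq_le hreg hk f
  set g : V → ℝ := fun z => f z - avg G k f z with hg
  have h3 : g x ^ 2 + g y ^ 2 ≤ ∑ z, g z ^ 2 := by
    have hsub : ({x, y} : Finset V) ⊆ Finset.univ := Finset.subset_univ _
    have := Finset.sum_le_sum_of_subset_of_nonneg (f := fun z => g z ^ 2) hsub
      (fun z _ _ => sq_nonneg _)
    rwa [Finset.sum_pair hne] at this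
  have e : f x - f y = (avg G k f x - avg G k f y) + (g x - g y) := by
    simp only [hg]; ring
  have h4 : (f x - f y) ^ 2 ≤ 2 * (avg G k f x - avg G k f y) ^ 2 + 2 * (g x - g y) ^ 2 := by
    rw [e]; nlinarith [sq_nonneg ((avg G k f x - avg G k f y) - (g x - g y))]
  have h5 : (g x - g y) ^ 2 ≤ 2 * (g x ^ 2 + g y ^ 2) := by
    nlinarith [sq_nonneg (g x + g y)]
  have h6 : (2 / (k : ℝ)) * energy G f * 6 = (12 / k) * energy G f := by ring
  nlinarith

end

end Vale.Agent.Lib.P061
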