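import Mathlib

/-!
The Marcus-Spielman-Srivastava theorem in the form used here (as a hypothesis), its
basis-free form for quadratic forms, and the recursive halving that produces a subfamily
with a positive lower bound and an upper bound proportional to the leverage.
-/

open Matrix Finset Module

namespace Vale.Agent.Lib.P061

/-- The theorem of Marcus, Spielman and Srivastava (Interlacing families II, Corollary 1.5
with r = 2) for real vectors: vectors in isotropic position with squared norms at most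
delta can be split into two sets, each with quadratic form at most (1/sqrt 2 + sqrt delta)^2. -/
def MSS2 : Prop :=
  ∀ (m d : ℕ) (u : Fin m → Fin d → ℝ) (δ : ℝ),
    (∀ x : Fin d → ℝ, ∑ i, (u i ⬝ᵥ x) ^ 2 = x ⬝ᵥ x) →
    (∀ i, u i ⬝ᵥ u i ≤ δ) →
    ∃ S : Finset (Fin m),
      (∀ x : Fin d → ℝ, ∑ i ∈ S, (u i ⬝ᵥ x) ^ 2 ≤ (1 / √2 + √δ) ^ 2 * (x ⬝ᵥ x)) ∧
      (∀ x : Fin d → ℝ, ∑ i ∈ Sᶜ, (u i ⬝ᵥ x) ^ 2 ≤ (1 / √2 + √δ) ^ 2 * (x ⬝ᵥ x))

lemma exists_coords {F : Type*} [NormedAddCommGroup F] [InnerProductSpace ℝ F] {d : ℕ}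
    (B : OrthonormalBasis (Fin d) ℝ F) (x : Fin d → ℝ) :
    ∃ y : F, ∀ j, inner ℝ (B j) y = x j := by
  refine ⟨∑ j, x j • B j, fun j => ?_⟩
  rw [inner_sum]
  have hon := orthonormal_iff_ite.mp B.orthonormal
  rw [Finset.sum_eq_single j]
  · rw [real_inner_smul_right, hon]; simp
  · intro i _ hij
    rw [real_inner_smul_right, hon, if_neg (Ne.symm hij)]; simp
  · simp

section Fin

variable {V : Type*} [Fintype V]

/-- Basis-free form of the hypothesis, for families indexed by Fin m. -/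
lemma mssq_fin (hMSS : MSS2) {m : ℕ} (b : Fin m → V → ℝ) {δ : ℝ} (hδ : 0 ≤ δ)
    (hlev : ∀ (f : V → ℝ) (i : Fin m), (b i ⬝ᵥ f) ^ 2 ≤ δ * ∑ j, (b j ⬝ᵥ f) ^ 2) :
    ∃ S : Finset (Fin m),
      (∀ f : V → ℝ, ∑ i ∈ S, (b i ⬝ᵥ f) ^ 2 ≤ (1 / √2 + √δ) ^ 2 * ∑ j, (b j ⬝ᵥ f) ^ 2) ∧
      (∀ f : V → ℝ, ∑ i ∈ Sᶜ, (b i ⬝ᵥ f) ^ 2 ≤ (1 / √2 + √δ) ^ 2 * ∑ j, (b j ⬝ᵥ f) ^ 2) := by
  classical
  let E := EuclideanSpace ℝ (Fin m)
  let Φ : (V → ℝ) →ₗ[ℝ] E :=
    { toFun := fun f => WithLp.toLp 2 (fun i => b i ⬝ᵥ f)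
      map_add' := by
        intro f g
        ext i
        show b i ⬝ᵥ (f + g) = b i ⬝ᵥ f + b i ⬝ᵥ g
        exact dotProduct_add _ _ _
      map_smul' := by
        intro c f
        ext i
        show b i ⬝ᵥ (c • f) = c • (b i ⬝ᵥ f)
        exact dotProduct_smul _ _ _ }
  let R : Submodule ℝ E := LinearMap.range Φ
  let B := stdOrthonormalBasis ℝ R
  let d := finrank ℝ R
  let w : Fin d → E := fun j => (B j : E)
  let u : Fin m → Fin d → ℝ := fun i j => (w j) i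
  -- coordinates of an element of R
  have hcoord : ∀ (y : R) (i : Fin m), (y : E) i = ∑ j, inner ℝ (B j) y * (w j) i := by
    intro y i
    have h := B.sum_repr' y
    have h2 := congrArg (fun z : R => (z : E) i) h
    simp only [Submodule.coe_sum, Submodule.coe_smul] at h2
    rw [← h2]
    have hlin : ∀ (s : Finset (Fin d)) (g : Fin d → E), (∑ j ∈ s, g j) i = ∑ j ∈ s, (g j) i := by
      intro s g
      induction s using Finset.induction_on with
      | empty => simp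
      | insert a s ha ih => rw [Finset.sum_insert ha, Finset.sum_insert ha, PiLp.add_apply, ih]
    rw [hlin]
    exact Finset.sum_congr rfl fun j _ => by rw [PiLp.smul_apply, smul_eq_mul]
  have hnorm : ∀ y : R, ∑ j, (inner ℝ (B j) y) ^ 2 = ∑ i, ((y : E) i) ^ 2 := by
    intro y
    have h := B.sum_sq_norm_inner_right y
    have h2 : ‖(y : E)‖ ^ 2 = ∑ i, ((y : E) i) ^ 2 := EuclideanSpace.real_norm_sq_eq _
    have h3 : ‖y‖ = ‖(y : E)‖ := rfl
    rw [← h2, ← h3, ← h]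
    simp
  -- building an element of R from coordinates
  have hbuild : ∀ x : Fin d → ℝ, ∃ y : R, (∀ j, inner ℝ (B j) y = x j) := by
    exact exists_coords B
  have hu_dot : ∀ (i : Fin m) (x : Fin d → ℝ) (y : R), (∀ j, inner ℝ (B j) y = x j) →
      (y : E) i = u i ⬝ᵥ x := by
    intro i x y hy
    rw [hcoord y i]
    simp only [dotProduct, u, hy]
    exact Finset.sum_congr rfl fun j _ => by ring
  have hdot_self : ∀ x : Fin d → ℝ, x ⬝ᵥ x = ∑ j, x j ^ 2 := by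
    intro x
    simp only [dotProduct]
    exact Finset.sum_congr rfl fun j _ => by ring
  have hiso : ∀ x : Fin d → ℝ, ∑ i, (u i ⬝ᵥ x) ^ 2 = x ⬝ᵥ x := by
    intro x
    obtain ⟨y, hy⟩ := hbuild x
    have h := hnorm y
    simp only [hy] at h
    rw [hdot_self, h]
    exact Finset.sum_congr rfl fun i _ => by rw [hu_dot i x y hy]
  have hΦ : ∀ (f : V → ℝ) (i : Fin m), (Φ f) i = b i ⬝ᵥ f := fun f i => rfl
  have hQ : ∀ (f : V → ℝ), ∑ j, (inner ℝ (B j) (⟨Φ f, LinearMap.mem_range_self Φ f⟩ : R)) ^ 2 =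
      ∑ j, (b j ⬝ᵥ f) ^ 2 := by
    intro f
    rw [hnorm]
    rfl
  have hlev' : ∀ i, u i ⬝ᵥ u i ≤ δ := by
    intro i
    obtain ⟨y, hy⟩ := hbuild (u i)
    obtain ⟨f, hf⟩ := y.2
    have hy' : y = ⟨Φ f, LinearMap.mem_range_self Φ f⟩ := Subtype.ext hf.symm
    have h1 : b i ⬝ᵥ f = u i ⬝ᵥ u i := by
      rw [← hΦ, hf]; exact hu_dot i (u i) y hy
    have h2 : ∑ j, (b j ⬝ᵥ f) ^ 2 = u i ⬝ᵥ u i := by
      rw [hdot_self, ← hQ f, ← hy']
      exact Finset.sum_congr rfl fun j _ => by rw [hy j]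
    have h3 := hlev f i
    rw [h1, h2] at h3
    have ht : 0 ≤ u i ⬝ᵥ u i := by
      rw [hdot_self]; exact Finset.sum_nonneg fun j _ => sq_nonneg _
    rcases ht.eq_or_lt with h0 | h0
    · rw [← h0]; exact hδ
    · have : (u i ⬝ᵥ u i) * (u i ⬝ᵥ u i) ≤ δ * (u i ⬝ᵥ u i) := by nlinarith
      exact le_of_mul_le_mul_right this h0
  obtain ⟨S, hS1, hS2⟩ := hMSS m d u δ hiso hlev'
  have hkey : ∀ (f : V → ℝ), ∃ x : Fin d → ℝ, (∀ i, b i ⬝ᵥ f = u i ⬝ᵥ x) ∧
      x ⬝ᵥ x = ∑ j, (b j ⬝ᵥ f) ^ 2 := by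
    intro f
    let y : R := ⟨Φ f, LinearMap.mem_range_self Φ f⟩
    refine ⟨fun j => inner ℝ (B j) y, fun i => ?_, ?_⟩
    · exact hu_dot i _ y (fun _ => rfl)
    · rw [hdot_self]; exact hQ f
  refine ⟨S, fun f => ?_, fun f => ?_⟩
  · obtain ⟨x, hx1, hx2⟩ := hkey f
    rw [← hx2]
    simp only [hx1]
    exact hS1 x
  · obtain ⟨x, hx1, hx2⟩ := hkey f
    rw [← hx2]
    simp only [hx1]
    exact hS2 x

end Fin

section Finset

variable {V : Type*} [Fintype V] {ι : Type*}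

/-- The sum of the squares of the linear forms in the family `H`. -/
noncomputable def formSum (b : ι → V → ℝ) (H : Finset ι) (f : V → ℝ) : ℝ :=
  ∑ i ∈ H, (b i ⬝ᵥ f) ^ 2

lemma formSum_nonneg (b : ι → V → ℝ) (H : Finset ι) (f : V → ℝ) : 0 ≤ formSum b H f :=
  Finset.sum_nonneg fun _ _ => sq_nonneg _

/-- Finset form of the hypothesis: the family `H` splits into two parts, each with form at most
`(1/√2 + √δ)^2` times the form of `H`. -/
lemma mssq_finset (hMSS : MSS2) [DecidableEq ι] (b : ι → V → ℝ) (H : Finset ι) {δ : ℝ}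
    (hδ : 0 ≤ δ)
    (hlev : ∀ (f : V → ℝ), ∀ i ∈ H, (b i ⬝ᵥ f) ^ 2 ≤ δ * formSum b H f) :
    ∃ S : Finset ι, S ⊆ H ∧
      (∀ f : V → ℝ, formSum b S f ≤ (1 / √2 + √δ) ^ 2 * formSum b H f) ∧
      (∀ f : V → ℝ, formSum b (H \ S) f ≤ (1 / √2 + √δ) ^ 2 * formSum b H f) := by
  let e : Fin H.card ≃ H := H.equivFin.symm
  let b' : Fin H.card → V → ℝ := fun j => b (e j)
  have hsum : ∀ f : V → ℝ, ∑ j, (b' j ⬝ᵥ f) ^ 2 = formSum b H f := by
    intro f
    have h1 : ∑ j, (b' j ⬝ᵥ f) ^ 2 = ∑ i : H, (b i ⬝ᵥ f) ^ 2 :=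
      Equiv.sum_comp e (fun i : H => (b i ⬝ᵥ f) ^ 2)
    rw [h1]
    exact Finset.sum_coe_sort H (fun i => (b i ⬝ᵥ f) ^ 2)
  have hlev' : ∀ (f : V → ℝ) (j : Fin H.card), (b' j ⬝ᵥ f) ^ 2 ≤ δ * ∑ j, (b' j ⬝ᵥ f) ^ 2 := by
    intro f j
    rw [hsum]
    exact hlev f _ (e j).2
  obtain ⟨S', hS1, hS2⟩ := mssq_fin hMSS b' hδ hlev'
  let emb : Fin H.card ↪ ι := ⟨fun j => (e j : ι), fun x y h => e.injective (Subtype.ext h)⟩
  let S : Finset ι := S'.map emb
  have hSH : S ⊆ H := by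
    intro i hi
    obtain ⟨j, _, rfl⟩ := Finset.mem_map.mp hi
    exact (e j).2
  have hSsum : ∀ f : V → ℝ, formSum b S f = ∑ j ∈ S', (b' j ⬝ᵥ f) ^ 2 := by
    intro f
    simp only [formSum, S, Finset.sum_map]
    rfl
  refine ⟨S, hSH, fun f => ?_, fun f => ?_⟩
  · rw [hSsum, ← hsum]
    exact hS1 f
  · have h1 : formSum b (H \ S) f + formSum b S f = formSum b H f :=
      Finset.sum_sdiff hSH
    have h2 : ∑ j ∈ S'ᶜ, (b' j ⬝ᵥ f) ^ 2 + ∑ j ∈ S', (b' j ⬝ᵥ f) ^ 2 = ∑ j, (b' j ⬝ᵥ f) ^ 2 :=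
      Finset.sum_compl_add_sum S' _
    have h3 := hS2 f
    rw [← hsum]
    have h4 := hSsum f
    have h5 := hsum f
    have h6 : formSum b (H \ S) f = ∑ j ∈ S'ᶜ, (b' j ⬝ᵥ f) ^ 2 := by linarith
    rw [h6]
    exact h3

/-- Numerical facts about `a = (1/√2 + s)^2` for `0 ≤ s ≤ 1/8`. -/
lemma split_numeric {s : ℝ} (hs0 : 0 ≤ s) (hs : s ≤ 1 / 8) :
    1 / 2 ≤ (1 / √2 + s) ^ 2 ∧ (1 / √2 + s) ^ 2 ≤ 7 / 10 ∧
      (1 / √2 + s) ^ 2 ≤ (1 - (1 / √2 + s) ^ 2) * Real.exp (12 * s) := by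
  set r : ℝ := 1 / √2 with hr
  have hr0 : 0 < r := by positivity
  have hr2 : r ^ 2 = 1 / 2 := by
    rw [hr, div_pow, one_pow, Real.sq_sqrt (by norm_num)]
  have hr71 : r ≤ 71 / 100 := by
    by_contra h
    push Not at h
    nlinarith
  have ha1 : (r + s) ^ 2 = 1 / 2 + 2 * r * s + s ^ 2 := by
    have : (r + s) ^ 2 = r ^ 2 + 2 * r * s + s ^ 2 := by ring
    rw [this, hr2]
  have hrs : r * s ≤ 71 / 100 * s := mul_le_mul_of_nonneg_right hr71 hs0
  have hrs0 : 0 ≤ r * s := by positivity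
  have hss : s ^ 2 ≤ s / 8 := by nlinarith
  have ha2 : (r + s) ^ 2 ≤ 1 / 2 + 142 / 100 * s + s ^ 2 := by rw [ha1]; linarith
  refine ⟨?_, ?_, ?_⟩
  · rw [ha1]; nlinarith [sq_nonneg s]
  · nlinarith
  · have he : 1 + 12 * s ≤ Real.exp (12 * s) := by
      have := Real.add_one_le_exp (12 * s)
      linarith
    have h7 : (r + s) ^ 2 ≤ 7 / 10 := by nlinarith
    have h1a : 0 ≤ 1 - (r + s) ^ 2 := by linarith
    have h3 : (1 - (r + s) ^ 2) * (1 + 12 * s) ≤ (1 - (r + s) ^ 2) * Real.exp (12 * s) :=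
      mul_le_mul_of_nonneg_left he h1a
    refine le_trans ?_ h3
    -- `a ≤ (1 - a) (1 + 12 s)` i.e. `2 a (1 + 6 s) ≤ 1 + 12 s`
    have h4 : (r + s) ^ 2 * (2 * (1 + 6 * s)) ≤ (1 / 2 + 142 / 100 * s + s ^ 2) * (2 * (1 + 6 * s)) :=
      mul_le_mul_of_nonneg_right ha2 (by positivity)
    have h5 : (1 / 2 + 142 / 100 * s + s ^ 2) * (2 * (1 + 6 * s)) ≤ 1 + 12 * s := by
      have h6 : s * s ≤ s * (1 / 8) := mul_le_mul_of_nonneg_left hs hs0
      have h8 : s ^ 2 * s ≤ s * (1 / 64) := by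
        have : s ^ 2 ≤ 1 / 64 := by nlinarith
        nlinarith
      nlinarith
    nlinarith

/-- One recursion run: keep halving until the lower bound is comparable to the leverage. -/
lemma halving [DecidableEq ι] (hMSS : MSS2) (b : ι → V → ℝ) (Q : (V → ℝ) → ℝ) {ε : ℝ}
    (hε : 0 < ε) (hQ : ∀ f, 0 ≤ Q f)
    (hlev : ∀ (f : V → ℝ) (i : ι), (b i ⬝ᵥ f) ^ 2 ≤ ε * Q f) (n : ℕ) :
    ∀ (H : Finset ι) (ℓ u : ℝ), 0 < ℓ → (∀ f, ℓ * Q f ≤ formSum b H f) →
      (∀ f, formSum b H f ≤ u * Q f) → u ≤ ℓ * Real.exp (30 * √(ε / ℓ)) → ε / ℓ ≤ 1 / 16 →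
      ℓ < 64 * ε * 2 ^ n →
      ∃ (H' : Finset ι) (ℓ' : ℝ), 0 < ℓ' ∧ (∀ f, ℓ' * Q f ≤ formSum b H' f) ∧
        (∀ f, formSum b H' f ≤ 64 * Real.exp (15 / 2) * ε * Q f) := by
  induction n with
  | zero =>
    intro H ℓ u hℓ hl hu huℓ hεℓ hn
    refine ⟨H, ℓ, hℓ, hl, fun f => (hu f).trans ?_⟩
    refine mul_le_mul_of_nonneg_right ?_ (hQ f)
    have h1 : √(ε / ℓ) ≤ 1 / 4 := by
      rw [show (1 / 4 : ℝ) = √(1 / 16) by
        rw [show (1 / 16 : ℝ) = (1 / 4) ^ 2 by norm_num, Real.sqrt_sq (by norm_num)]]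
      exact Real.sqrt_le_sqrt hεℓ
    have h2 : Real.exp (30 * √(ε / ℓ)) ≤ Real.exp (15 / 2) := by
      apply Real.exp_le_exp.mpr
      linarith
    have hn' : ℓ < 64 * ε := by simpa using hn
    calc u ≤ ℓ * Real.exp (30 * √(ε / ℓ)) := huℓ
      _ ≤ (64 * ε) * Real.exp (15 / 2) :=
        mul_le_mul hn'.le h2 (Real.exp_pos _).le (by positivity)
      _ = 64 * Real.exp (15 / 2) * ε := by ring
  | succ n ih =>
    intro H ℓ u hℓ hl hu huℓ hεℓ hn
    by_cases hbase : ℓ < 64 * ε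
    · -- stop: the same computation as in the base case
      refine ⟨H, ℓ, hℓ, hl, fun f => (hu f).trans ?_⟩
      refine mul_le_mul_of_nonneg_right ?_ (hQ f)
      have h1 : √(ε / ℓ) ≤ 1 / 4 := by
        rw [show (1 / 4 : ℝ) = √(1 / 16) by
          rw [show (1 / 16 : ℝ) = (1 / 4) ^ 2 by norm_num, Real.sqrt_sq (by norm_num)]]
        exact Real.sqrt_le_sqrt hεℓ
      have h2 : Real.exp (30 * √(ε / ℓ)) ≤ Real.exp (15 / 2) := by
        apply Real.exp_le_exp.mpr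
        linarith
      calc u ≤ ℓ * Real.exp (30 * √(ε / ℓ)) := huℓ
        _ ≤ (64 * ε) * Real.exp (15 / 2) :=
          mul_le_mul hbase.le h2 (Real.exp_pos _).le (by positivity)
        _ = 64 * Real.exp (15 / 2) * ε := by ring
    · push Not at hbase
      set δ : ℝ := ε / ℓ with hδdef
      have hδ0 : 0 < δ := div_pos hε hℓ
      have hδ64 : δ ≤ 1 / 64 := by
        rw [hδdef, div_le_iff₀ hℓ]
        linarith
      set s : ℝ := √δ with hsdef
      have hs0 : 0 ≤ s := Real.sqrt_nonneg _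
      have hs8 : s ≤ 1 / 8 := by
        rw [hsdef, show (1 / 8 : ℝ) = √(1 / 64) by
          rw [show (1 / 64 : ℝ) = (1 / 8) ^ 2 by norm_num, Real.sqrt_sq (by norm_num)]]
        exact Real.sqrt_le_sqrt hδ64
      have hlevH : ∀ (f : V → ℝ), ∀ i ∈ H, (b i ⬝ᵥ f) ^ 2 ≤ δ * formSum b H f := by
        intro f i _
        calc (b i ⬝ᵥ f) ^ 2 ≤ ε * Q f := hlev f i
          _ = δ * (ℓ * Q f) := by rw [hδdef]; field_simp
          _ ≤ δ * formSum b H f := mul_le_mul_of_nonneg_left (hl f) hδ0.le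
      obtain ⟨S, hSH, hS1, hS2⟩ := mssq_finset hMSS b H hδ0.le hlevH
      obtain ⟨ha1, ha2, ha3⟩ := split_numeric hs0 hs8
      set a : ℝ := (1 / √2 + s) ^ 2 with hadef
      have hS1' : ∀ f, formSum b S f ≤ a * formSum b H f := hS1
      have hS2' : ∀ f, formSum b (H \ S) f ≤ a * formSum b H f := hS2
      have hadd : ∀ f, formSum b (H \ S) f + formSum b S f = formSum b H f :=
        fun f => Finset.sum_sdiff hSH
      have hlow : ∀ f, (1 - a) * formSum b H f ≤ formSum b S f := by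
        intro f
        have := hS2' f
        have := hadd f
        nlinarith
      have h1a : 0 < 1 - a := by linarith
      have hℓ' : 0 < ℓ * (1 - a) := mul_pos hℓ h1a
      have hℓ'le : ℓ * (1 - a) ≤ ℓ / 2 := by nlinarith
      have hℓ'ge : (3 / 10) * ℓ ≤ ℓ * (1 - a) := by nlinarith
      refine ih S (ℓ * (1 - a)) (u * a) hℓ' (fun f => ?_) (fun f => ?_) ?_ ?_ ?_
      · calc ℓ * (1 - a) * Q f = (1 - a) * (ℓ * Q f) := by ring
          _ ≤ (1 - a) * formSum b H f := mul_le_mul_of_nonneg_left (hl f) h1a.le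
          _ ≤ formSum b S f := hlow f
      · calc formSum b S f ≤ a * formSum b H f := hS1' f
          _ ≤ a * (u * Q f) := mul_le_mul_of_nonneg_left (hu f) (by linarith)
          _ = u * a * Q f := by ring
      · -- the exponent inequality
        have hs' : 14 / 10 * s ≤ √(ε / (ℓ * (1 - a))) := by
          apply Real.le_sqrt_of_sq_le
          have hq : (14 / 10 * s) ^ 2 = 196 / 100 * δ := by
            rw [mul_pow, hsdef, Real.sq_sqrt hδ0.le]; norm_num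
          rw [hq]
          have : 2 * δ ≤ ε / (ℓ * (1 - a)) := by
            rw [le_div_iff₀ hℓ', hδdef]
            have hε' : ε / ℓ * (ℓ * (1 - a)) = ε * (1 - a) := by field_simp
            have : 2 * (ε / ℓ) * (ℓ * (1 - a)) = 2 * (ε * (1 - a)) := by
              rw [mul_assoc, hε']
            rw [this]
            nlinarith
          nlinarith
        have hexp : Real.exp (30 * s) * Real.exp (12 * s) ≤
            Real.exp (30 * √(ε / (ℓ * (1 - a)))) := by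
          rw [← Real.exp_add]
          apply Real.exp_le_exp.mpr
          nlinarith
        have ha0 : 0 ≤ a := by linarith
        calc u * a ≤ (ℓ * Real.exp (30 * s)) * a := mul_le_mul_of_nonneg_right huℓ ha0
          _ ≤ (ℓ * Real.exp (30 * s)) * ((1 - a) * Real.exp (12 * s)) :=
            mul_le_mul_of_nonneg_left ha3 (by positivity)
          _ = ℓ * (1 - a) * (Real.exp (30 * s) * Real.exp (12 * s)) := by ring
          _ ≤ ℓ * (1 - a) * Real.exp (30 * √(ε / (ℓ * (1 - a)))) :=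
            mul_le_mul_of_nonneg_left hexp hℓ'.le
      · -- the ratio stays below 1/16
        rw [div_le_iff₀ hℓ']
        have : ε ≤ ℓ / 64 := by
          rw [hδdef, div_le_iff₀ hℓ] at hδ64
          linarith
        nlinarith
      · have h2 : (2 : ℝ) ^ (n + 1) = 2 * 2 ^ n := by ring
        rw [h2] at hn
        nlinarith

/-- The output of the recursion: a subfamily `H` with form between a positive multiple of `Q`
and `64 * exp (15/2) * ε * Q`. -/
theorem exists_subfamily [Fintype ι] [DecidableEq ι] (hMSS : MSS2) (b : ι → V → ℝ) {ε : ℝ}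
    (hε : 0 < ε)
    (hlev : ∀ (f : V → ℝ) (i : ι), (b i ⬝ᵥ f) ^ 2 ≤ ε * formSum b Finset.univ f) :
    ∃ (H : Finset ι) (ℓ : ℝ), 0 < ℓ ∧ (∀ f, ℓ * formSum b Finset.univ f ≤ formSum b H f) ∧
      (∀ f, formSum b H f ≤ 64 * Real.exp (15 / 2) * ε * formSum b Finset.univ f) := by
  by_cases hε16 : ε ≤ 1 / 16
  · obtain ⟨n, hn⟩ := pow_unbounded_of_one_lt (1 / (64 * ε)) (by norm_num : (1 : ℝ) < 2)
    have hn' : (1 : ℝ) < 64 * ε * 2 ^ n := by
      rw [div_lt_iff₀ (by positivity)] at hn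
      linarith
    refine halving hMSS b (formSum b Finset.univ) hε (formSum_nonneg b _) hlev n Finset.univ 1 1
      one_pos (fun f => ?_) (fun f => ?_) ?_ ?_ hn'
    · simp
    · simp
    · rw [one_mul]
      exact Real.one_le_exp (by positivity)
    · simpa using hε16
  · push Not at hε16
    refine ⟨Finset.univ, 1, one_pos, fun f => by simp, fun f => ?_⟩
    have h1 : (1 : ℝ) ≤ Real.exp (15 / 2) := Real.one_le_exp (by norm_num)
    have h2 : (1 : ℝ) ≤ 64 * Real.exp (15 / 2) * ε := by nlinarith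
    have h3 := formSum_nonneg b Finset.univ f
    nlinarith

end Finset

end Vale.Agent.Lib.P061
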