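import Mathlib
import Vale.Agent.Lib.P061.Resistance
import Vale.Agent.Lib.P061.Split

/-!
Thin trees from the leverage bound: the graph part.
-/

open Matrix Finset

namespace Vale.Agent.Lib.P061

variable {V : Type*} [Fintype V] [DecidableEq V]

/-- The linear form of an ordered pair: the difference across the pair if the pair is an edge,
and zero otherwise. -/
noncomputable def pairForm (G : SimpleGraph V) [DecidableRel G.Adj] (p : V × V) : V → ℝ :=
  if G.Adj p.1 p.2 then Pi.single p.1 1 - Pi.single p.2 1 else 0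

lemma pairForm_dot (G : SimpleGraph V) [DecidableRel G.Adj] (p : V × V) (f : V → ℝ) :
    pairForm G p ⬝ᵥ f = if G.Adj p.1 p.2 then f p.1 - f p.2 else 0 := by
  unfold pairForm
  split_ifs with h
  · rw [sub_dotProduct, single_one_dotProduct, single_one_dotProduct]
  · simp

lemma pairForm_dot_sq (G : SimpleGraph V) [DecidableRel G.Adj] (p : V × V) (f : V → ℝ) :
    (pairForm G p ⬝ᵥ f) ^ 2 = if G.Adj p.1 p.2 then (f p.1 - f p.2) ^ 2 else 0 := by
  rw [pairForm_dot]
  split_ifs <;> simp

lemma formSum_univ (G : SimpleGraph V) [DecidableRel G.Adj] (f : V → ℝ) :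
    formSum (pairForm G) Finset.univ f = 2 * energy G f := by
  unfold formSum energy
  rw [Fintype.sum_prod_type]
  simp only [pairForm_dot_sq]
  ring

/-- The graph of those edges of `G` that are selected by `H`, in either orientation. -/
def selected (G : SimpleGraph V) [DecidableRel G.Adj] (H : Finset (V × V)) : SimpleGraph V where
  Adj u v := ((u, v) ∈ H ∧ G.Adj u v) ∨ ((v, u) ∈ H ∧ G.Adj v u)
  symm := ⟨by
    intro u v h
    exact h.symm⟩
  loopless := ⟨by
    intro u h
    rcases h with h | h
    · exact G.irrefl h.2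
    · exact G.irrefl h.2⟩

lemma selected_le (G : SimpleGraph V) [DecidableRel G.Adj] (H : Finset (V × V)) :
    selected G H ≤ G := by
  intro u v h
  rcases h with h | h
  · exact h.2
  · exact h.2.symm

/-- A subfamily with a positive lower bound gives a connected graph. -/
lemma selected_connected (G : SimpleGraph V) [DecidableRel G.Adj] (hG : G.Connected)
    (H : Finset (V × V)) {ℓ : ℝ} (hℓ : 0 < ℓ)
    (hl : ∀ f, ℓ * formSum (pairForm G) Finset.univ f ≤ formSum (pairForm G) H f) :
    (selected G H).Connected := by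
  classical
  have := hG.nonempty
  refine ⟨fun x y => ?_⟩
  let f : V → ℝ := fun v => if (selected G H).Reachable x v then 1 else 0
  have hH : formSum (pairForm G) H f = 0 := by
    apply Finset.sum_eq_zero
    intro p hp
    rw [pairForm_dot_sq]
    split_ifs with hadj
    · have hT : (selected G H).Adj p.1 p.2 := Or.inl ⟨hp, hadj⟩
      have hiff : (selected G H).Reachable x p.1 ↔ (selected G H).Reachable x p.2 :=
        ⟨fun h => h.trans hT.reachable, fun h => h.trans hT.symm.reachable⟩
      simp only [f, hiff]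
      simp
    · rfl
  have hQ : formSum (pairForm G) Finset.univ f ≤ 0 := by
    have h1 := hl f
    rw [hH] at h1
    by_contra hpos
    push Not at hpos
    have := mul_pos hℓ hpos
    linarith
  have hedge : ∀ u v, G.Adj u v → f u = f v := by
    intro u v huv
    have h1 : (pairForm G (u, v) ⬝ᵥ f) ^ 2 ≤ formSum (pairForm G) Finset.univ f :=
      Finset.single_le_sum (f := fun p => (pairForm G p ⬝ᵥ f) ^ 2)
        (fun _ _ => sq_nonneg _) (Finset.mem_univ _)
    rw [pairForm_dot_sq] at h1
    simp only [huv, if_true] at h1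
    have h2 : (f u - f v) ^ 2 ≤ 0 := h1.trans hQ
    have h3 : f u - f v = 0 := by
      have := sq_nonneg (f u - f v)
      exact pow_eq_zero_iff (by norm_num) |>.mp (le_antisymm h2 this)
    linarith
  have hwalk : ∀ (u v : V), G.Walk u v → f u = f v := by
    intro u v w
    induction w with
    | nil => rfl
    | cons h _ ih => exact (hedge _ _ h).trans ih
  obtain ⟨w⟩ := hG.preconnected x y
  have hfx : f x = 1 := by simp [f]
  have hfy : f y = 1 := by rw [← hwalk x y w, hfx]
  by_contra hne
  have : f y = 0 := by simp [f, hne]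
  linarith

/-- The energy of a subgraph of the selected graph is at most the form of `H`. -/
lemma energy_le_formSum (G : SimpleGraph V) [DecidableRel G.Adj] (H : Finset (V × V))
    (T : SimpleGraph V) [DecidableRel T.Adj] (hT : T ≤ selected G H) (f : V → ℝ) :
    energy T f ≤ formSum (pairForm G) H f := by
  classical
  let D : V → V → ℝ := fun u v => if (u, v) ∈ H then (pairForm G (u, v) ⬝ᵥ f) ^ 2 else 0
  have hD : formSum (pairForm G) H f = ∑ u, ∑ v, D u v := by
    have h1 : ∑ p : V × V, (if p ∈ H then (pairForm G p ⬝ᵥ f) ^ 2 else 0) =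
        formSum (pairForm G) H f := by
      rw [Finset.sum_ite_mem, Finset.univ_inter]
      rfl
    rw [← h1, Fintype.sum_prod_type]
  have hD0 : ∀ u v, 0 ≤ D u v := by
    intro u v
    simp only [D]
    split_ifs
    · exact sq_nonneg _
    · exact le_rfl
  have hpt : ∀ u v, (if T.Adj u v then (f u - f v) ^ 2 else 0) ≤ D u v + D v u := by
    intro u v
    split_ifs with huv
    · rcases hT huv with ⟨h1, h2⟩ | ⟨h1, h2⟩
      · have h3 : D u v = (f u - f v) ^ 2 := by
          simp only [D, if_pos h1]
          rw [pairForm_dot_sq]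
          simp only [h2, if_true]
        rw [h3]
        linarith [hD0 v u]
      · have h3 : D v u = (f u - f v) ^ 2 := by
          simp only [D, if_pos h1]
          rw [pairForm_dot_sq]
          simp only [h2, if_true]
          ring
        rw [h3]
        linarith [hD0 u v]
    · exact add_nonneg (hD0 _ _) (hD0 _ _)
  have hsum : ∑ u, ∑ v, (if T.Adj u v then (f u - f v) ^ 2 else 0) ≤
      ∑ u, ∑ v, (D u v + D v u) :=
    Finset.sum_le_sum fun u _ => Finset.sum_le_sum fun v _ => hpt u v
  have hcomm : ∑ u, ∑ v, D v u = ∑ u, ∑ v, D u v := Finset.sum_comm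
  have hsplit : ∑ u, ∑ v, (D u v + D v u) = 2 * ∑ u, ∑ v, D u v := by
    simp only [Finset.sum_add_distrib]
    rw [hcomm]
    ring
  unfold energy
  rw [hD]
  rw [hsplit] at hsum
  linarith

/-- The energy of the indicator function of a set counts the edges leaving the set. -/
lemma energy_indicator (Γ : SimpleGraph V) [DecidableRel Γ.Adj] (S : Set V) :
    energy Γ (S.indicator 1) = (Set.ncard {p : V × V | p.1 ∈ S ∧ p.2 ∉ S ∧ Γ.Adj p.1 p.2} : ℝ) := by
  classical
  let c : V → V → ℝ := fun u v => if u ∈ S ∧ v ∉ S ∧ Γ.Adj u v then 1 else 0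
  have hcount : (Set.ncard {p : V × V | p.1 ∈ S ∧ p.2 ∉ S ∧ Γ.Adj p.1 p.2} : ℝ) =
      ∑ u, ∑ v, c u v := by
    have h1 : {p : V × V | p.1 ∈ S ∧ p.2 ∉ S ∧ Γ.Adj p.1 p.2} =
        ↑(Finset.univ.filter (fun p : V × V => p.1 ∈ S ∧ p.2 ∉ S ∧ Γ.Adj p.1 p.2)) := by
      ext p
      simp
    rw [h1, Set.ncard_coe_finset, Finset.card_filter, Nat.cast_sum, Fintype.sum_prod_type]
    refine Finset.sum_congr rfl fun u _ => Finset.sum_congr rfl fun v _ => ?_
    simp only [c]
    split_ifs <;> simp
  have hpt : ∀ u v, (if Γ.Adj u v then (S.indicator (1 : V → ℝ) u - S.indicator (1 : V → ℝ) v) ^ 2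
      else 0) = c u v + c v u := by
    intro u v
    by_cases hu : u ∈ S <;> by_cases hv : v ∈ S <;> by_cases ha : Γ.Adj u v <;>
      simp [c, hu, hv, ha, Γ.adj_comm v u]
  have hcomm : ∑ u, ∑ v, c v u = ∑ u, ∑ v, c u v := Finset.sum_comm
  unfold energy
  simp only [hpt, Finset.sum_add_distrib]
  rw [hcomm, hcount]
  ring

/-- From the leverage bound on the edges of a connected graph, and the hypothesis `MSS2`, a
spanning tree whose energy is at most a constant times `ε` times the energy of the graph. -/
theorem exists_thin_tree (hMSS : MSS2) (G : SimpleGraph V) [DecidableRel G.Adj] (hG : G.Connected)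
    {ε : ℝ} (hε : 0 < ε)
    (hlev : ∀ (f : V → ℝ) (x y : V), G.Adj x y → (f x - f y) ^ 2 ≤ ε * energy G f) :
    ∃ (T : SimpleGraph V) (_ : DecidableRel T.Adj), T ≤ G ∧ T.IsTree ∧
      (∀ f : V → ℝ, energy T f ≤ 64 * Real.exp (15 / 2) * ε * energy G f) := by
  classical
  have hlev' : ∀ (f : V → ℝ) (p : V × V), (pairForm G p ⬝ᵥ f) ^ 2 ≤
      (ε / 2) * formSum (pairForm G) Finset.univ f := by
    intro f p
    rw [formSum_univ, pairForm_dot_sq]
    split_ifs with h
    · have := hlev f p.1 p.2 h
      linarith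
    · have := energy_nonneg (G := G) f
      have h2 : 0 ≤ ε * energy G f := by positivity
      linarith
  obtain ⟨H, ℓ, hℓ, hl, hu⟩ := exists_subfamily hMSS (pairForm G) (half_pos hε) hlev'
  obtain ⟨T, hT1, hT2⟩ := (selected_connected G hG H hℓ hl).exists_isTree_le
  refine ⟨T, Classical.decRel _, hT1.trans (selected_le G H), hT2, fun f => ?_⟩
  have h1 := energy_le_formSum G H T hT1 f
  have h2 := hu f
  rw [formSum_univ] at h2
  have h3 : 64 * Real.exp (15 / 2) * (ε / 2) * (2 * energy G f) =
      64 * Real.exp (15 / 2) * ε * energy G f := by ring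
  linarith

/-- The main theorem, conditional on `MSS2`: connected vertex-transitive `k`-regular simple graphs
have spanning trees that are `(C / k)`-thin on every cut, and spectrally so. -/
theorem transitive_thin_tree (hMSS : MSS2) (G : SimpleGraph V) [DecidableRel G.Adj]
    (hG : G.Connected) {k : ℕ} (hk : 0 < k) (hreg : G.IsRegularOfDegree k)
    (htrans : ∀ x y, ∃ σ : G ≃g G, σ x = y) :
    ∃ (T : SimpleGraph V) (_ : DecidableRel T.Adj), T ≤ G ∧ T.IsTree ∧
      (∀ f : V → ℝ, energy T f ≤ (768 * Real.exp (15 / 2) / k) * energy G f) ∧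
      (∀ S : Set V, (Set.ncard {p : V × V | p.1 ∈ S ∧ p.2 ∉ S ∧ T.Adj p.1 p.2} : ℝ) ≤
        (768 * Real.exp (15 / 2) / k) *
          (Set.ncard {p : V × V | p.1 ∈ S ∧ p.2 ∉ S ∧ G.Adj p.1 p.2} : ℝ)) := by
  have hk' : (0 : ℝ) < k := by exact_mod_cast hk
  obtain ⟨T, hdec, hT1, hT2, hT3⟩ := exists_thin_tree hMSS G hG (ε := 12 / k) (by positivity)
    (fun f x y hxy => edge_diff_sq_le hreg hk htrans f hxy)
  have hC : ∀ f : V → ℝ, energy T f ≤ (768 * Real.exp (15 / 2) / k) * energy G f := by
    intro f
    have h1 := hT3 f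
    have h2 : 64 * Real.exp (15 / 2) * (12 / (k : ℝ)) * energy G f =
        (768 * Real.exp (15 / 2) / k) * energy G f := by
      field_simp
      ring
    linarith
  refine ⟨T, hdec, hT1, hT2, hC, fun S => ?_⟩
  have h := hC (S.indicator 1)
  rw [energy_indicator, energy_indicator] at h
  exact h

end Vale.Agent.Lib.P061
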